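import Vale.Agent.P297.Gg.H516.Sub

/-!
Varieties that are dominated by a rational variety.
-/

set_option linter.unusedSectionVars false
set_option linter.style.haveILetI false

open CategoryTheory AlgebraicGeometry IntermediateField Polynomial

namespace Vale.Agent.P297.Gg

open Vale.Agent.P297 Vale.Agent.P297.H839 Vale.Agent.P297.H516 Vale.Agent.P297.H878
  Vale.Agent.P297.Gen

/-- Unirational varieties. -/
theorem rational_dominated {K : Type} [Field K] [Algebra ℂ K]
    (hK : IsRational (⊤ : IntermediateField ℂ K)) (K₀ : Type) [Field K₀] [Algebra ℂ K₀]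
    (e : K₀ →ₐ[ℂ] K) : PointsEquivalent K₀ := by
  obtain ⟨d, x, hx, htop⟩ := hK
  intro S _ f _ hf u v
  obtain ⟨U, hU, hne, hi⟩ := exists_chart f hf
  letI := chartAlg f hU
  haveI := chart_finiteType f hU
  obtain ⟨i, hi, hfrac⟩ := hi
  have h1 := global_of_good' f hU 1 (Rat f) le_rfl (e.comp i)
    (e.toRingHom.injective.comp hi)
    (good_trivial (f := f) (j := hU.fromSpec) (hj := chart_hj f hU) x hx htop.symm (e.comp i)) u v
  rw [one_smul] at h1
  exact h1

theorem top_of_finrank_one {K : Type} [Field K] [Algebra ℂ K] (F : IntermediateField ℂ K)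
    (h : Module.finrank F K = 1) : F = ⊤ := by
  rw [eq_top_iff]
  intro k _
  have h1 : (⊥ : Subalgebra F K) = ⊤ := Subalgebra.bot_eq_top_iff_finrank_eq_one.2 h
  have h2 : k ∈ (⊥ : Subalgebra F K) := by
    rw [h1]
    trivial
  obtain ⟨a, ha⟩ := Algebra.mem_bot.1 h2
  rw [← ha]
  exact a.2

/-- A purely transcendental subfield of index one. -/
theorem dominated_of_finrank_one {K : Type} [Field K] [Algebra ℂ K] (F : IntermediateField ℂ K)
    (hF : IsRational F) (h : Module.finrank F K = 1) (K₀ : Type) [Field K₀] [Algebra ℂ K₀]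
    (e : K₀ →ₐ[ℂ] K) : PointsEquivalent K₀ := by
  rw [top_of_finrank_one F h] at hF
  exact rational_dominated hF K₀ e

end Vale.Agent.P297.Gg
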