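import Vale.Agent.P297.Gg.Dom
import Mathlib.LinearAlgebra.Matrix.ToLinearEquiv

/-!
The residual points determine the fibres up to algebraic dependence: quotients of any genus.
-/

set_option linter.unusedSectionVars false
set_option linter.style.haveILetI false

open CategoryTheory AlgebraicGeometry IntermediateField Polynomial

namespace Vale.Agent.P297.Gg

open Vale.Agent.P297 Vale.Agent.P297.H839 Vale.Agent.P297.H516 Vale.Agent.P297.H878
  Vale.Agent.P297.Gen

/-- Linearly independent polynomials stay independent after a change of field. -/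
theorem indep_map {k N : Type} [Field k] [Field N] (φ : k →+* N) {g : ℕ} (a : Fin g → k[X])
    (ha : ∀ b, (a b).natDegree < g) (hli : LinearIndependent k a) (r : Fin g → N)
    (hr : ∑ b, Polynomial.C (r b) * (a b).map φ = 0) : r = 0 := by
  classical
  let A : Matrix (Fin g) (Fin g) k := Matrix.of fun b j => (a b).coeff j
  have hA : A.det ≠ 0 := by
    intro h0
    obtain ⟨v, hv0, hv⟩ := Matrix.exists_vecMul_eq_zero_iff.2 h0
    apply hv0
    have h1 : ∑ b, v b • a b = 0 := by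
      ext j
      rw [finset_sum_coeff, Polynomial.coeff_zero]
      by_cases hj : j < g
      · have h2 := congrFun hv ⟨j, hj⟩
        simp only [Matrix.vecMul, dotProduct, A, Matrix.of_apply, Pi.zero_apply] at h2
        simp only [coeff_smul, smul_eq_mul]
        exact h2
      · refine Finset.sum_eq_zero fun b _ => ?_
        rw [coeff_smul, coeff_eq_zero_of_natDegree_lt, smul_zero]
        have := ha b
        omega
    funext b
    exact Fintype.linearIndependent_iff.1 hli v h1 b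
  have hB : (A.map φ).det ≠ 0 := by
    have h1 : (A.map φ).det = φ A.det := (RingHom.map_det φ A).symm
    rw [h1]
    exact (map_ne_zero φ).2 hA
  apply Matrix.eq_zero_of_vecMul_eq_zero hB
  funext j
  have h1 := congrArg (fun p : N[X] => p.coeff (j : ℕ)) hr
  simp only [finset_sum_coeff, coeff_C_mul, coeff_map, Polynomial.coeff_zero] at h1
  simp only [Matrix.vecMul, dotProduct, A, Matrix.map_apply, Matrix.of_apply, Pi.zero_apply]
  exact h1

section

variable {N : Type} [Field N] [Algebra ℂ N] [IsAlgClosed N]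

/-- The evaluation matrix at independent points is nonsingular. -/
theorem gen_lin {g : ℕ} (L : IntermediateField ℂ N) (c : Fin g → N[X])
    (hcL : ∀ b k, (c b).coeff k ∈ L)
    (hli : ∀ r : Fin g → N, ∑ b, Polynomial.C (r b) * c b = 0 → r = 0) (z : Fin g → N)
    (hz : ∀ b, ¬ Cl L (z '' {b}ᶜ) (z b)) (s : Finset (Fin g)) (d : Fin g → N)
    (h : ∀ j ∈ s, ∑ b ∈ s, (c j).eval (z b) * d b = 0) : ∀ b ∈ s, d b = 0 := by
  classical
  intro b₀ hb₀
  by_contra hd
  obtain ⟨M, hM, hLM, hzM, hb₀M⟩ : ∃ M : IntermediateField ℂ N,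
      (∀ u : N, IsAlgebraic M u → u ∈ M) ∧ L ≤ M ∧ z '' {b₀}ᶜ ⊆ (M : Set N) ∧ z b₀ ∉ M := by
    by_contra hne
    apply hz b₀
    intro M hM hLM hxM
    by_contra hBM
    exact hne ⟨M, hM, hLM, hxM, hBM⟩
  have hzb : ∀ b, b ≠ b₀ → z b ∈ M := fun b hb => hzM ⟨b, hb, rfl⟩
  have hev : ∀ j b, b ≠ b₀ → (c j).eval (z b) ∈ M := fun j b hb =>
    eval_mem M (fun k => hLM (hcL j k)) (hzb b hb)
  let T : (↥s → M) →ₗ[M] (↥(s.erase b₀) → M) :=
    { toFun := fun r b => ∑ j : s, r j * ⟨(c j).eval (z b), hev j b (Finset.ne_of_mem_erase b.2)⟩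
      map_add' := fun r r' => by
        funext b
        simp only [Pi.add_apply, add_mul, Finset.sum_add_distrib]
      map_smul' := fun t r => by
        funext b
        simp only [Pi.smul_apply, smul_eq_mul, RingHom.id_apply, Finset.mul_sum, mul_assoc] }
  have hker : LinearMap.ker T ≠ ⊥ := by
    apply LinearMap.ker_ne_bot_of_finrank_lt
    rw [Module.finrank_fintype_fun_eq_card, Module.finrank_fintype_fun_eq_card,
      Fintype.card_coe, Fintype.card_coe]
    exact Finset.card_lt_card (Finset.erase_ssubset hb₀)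
  obtain ⟨r, hr, hr0⟩ := Submodule.exists_mem_ne_zero_of_ne_bot hker
  have hr1 : ∀ b ∈ s, b ≠ b₀ → ∑ j : s, (r j : N) * (c j).eval (z b) = 0 := by
    intro b hb hbb
    have h1 := congrFun (LinearMap.mem_ker.1 hr) ⟨b, Finset.mem_erase.2 ⟨hbb, hb⟩⟩
    have h2 := congrArg (fun u : M => (u : N)) h1
    simp only [T, LinearMap.coe_mk, AddHom.coe_mk, Pi.zero_apply, ZeroMemClass.coe_zero] at h2
    rw [← h2]
    push_cast
    rfl
  -- the last equation
  have h3 : ∑ j : s, (r j : N) * (c j).eval (z b₀) = 0 := by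
    have h4 : ∑ j : s, (r j : N) * ∑ b ∈ s, (c j).eval (z b) * d b = 0 :=
      Finset.sum_eq_zero fun j _ => by rw [h j j.2, mul_zero]
    have h5 : ∑ j : s, (r j : N) * ∑ b ∈ s, (c j).eval (z b) * d b =
        ∑ b ∈ s, (∑ j : s, (r j : N) * (c j).eval (z b)) * d b := by
      simp only [Finset.mul_sum, Finset.sum_mul]
      rw [Finset.sum_comm]
      refine Finset.sum_congr rfl fun b _ => Finset.sum_congr rfl fun j _ => ?_
      ring
    rw [h5, Finset.sum_eq_single b₀ (fun b hb hbb => by rw [hr1 b hb hbb, zero_mul])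
      (fun h => absurd hb₀ h)] at h4
    exact (mul_eq_zero.1 h4).resolve_right hd
  let r' : Fin g → N := fun j => if hj : j ∈ s then (r ⟨j, hj⟩ : N) else 0
  have hr'M : ∀ j, r' j ∈ M := by
    intro j
    by_cases hj : j ∈ s
    · simp only [r', hj, dif_pos]
      exact (r ⟨j, hj⟩).2
    · simp only [r', hj, dif_neg, not_false_iff]
      exact zero_mem _
  have hsum : ∀ F : Fin g → N[X], ∑ j, Polynomial.C (r' j) * F j =
      ∑ j : s, Polynomial.C (r j : N) * F j := by
    intro F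
    have h6 : ∑ j ∈ s, Polynomial.C (r' j) * F j = ∑ j, Polynomial.C (r' j) * F j :=
      Finset.sum_subset (Finset.subset_univ s) (fun j _ hj => by
        simp only [r', hj, dif_neg, not_false_iff, Polynomial.C_0, zero_mul])
    rw [← h6, ← Finset.sum_coe_sort s (fun j => Polynomial.C (r' j) * F j)]
    refine Finset.sum_congr rfl fun j _ => ?_
    simp only [r', j.2, dif_pos]
  have h7 : ∑ j, Polynomial.C (r' j) * c j = 0 := by
    by_contra hne
    apply hb₀M
    refine root_mem M hM (p := ∑ j, Polynomial.C (r' j) * c j) ?_ hne ?_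
    · intro k
      rw [finset_sum_coeff]
      refine sum_mem fun j _ => ?_
      rw [coeff_C_mul]
      exact mul_mem (hr'M j) (hLM (hcL j k))
    · rw [hsum, eval_finset_sum]
      simp only [eval_mul, eval_C]
      exact h3
  have h8 := hli r' h7
  apply hr0
  funext j
  have h9 := congrFun h8 j
  simp only [r', j.2, dif_pos, Pi.zero_apply] at h9
  exact Subtype.ext h9

/-- The domination property for several fibres and additional points. -/
theorem dom_classes {g : ℕ} {n : Fin g → ℕ}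
    (hpos : ∀ b, 0 < n b) {κ : Type} [Fintype κ] {z y : (Σ b, Fin (n b)) → N} {z' y' : κ → N}
    (L M : IntermediateField ℂ N) (hLM : L ≤ M) (hM : ∀ x, IsAlgebraic M x → x ∈ M)
    {f α β Q : N[X]} (hf : ∀ n, f.coeff n ∈ L) (hsq : Squarefree f)
    (hdeg : 2 * g + 1 ≤ f.natDegree) (hz : Function.Injective (Sum.elim z z'))
    (hy : ∀ i, Sum.elim y y' i ^ 2 = f.eval (Sum.elim z z' i))
    (a : Fin g → N[X]) (ha : ∀ b, (a b).natDegree < g) (haL : ∀ b k, (a b).coeff k ∈ L)
    (hli : ∀ r : Fin g → N, ∑ b, Polynomial.C (r b) * a b = 0 → r = 0)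
    (ha0 : ∀ b i, (a b).eval (z ⟨b, i⟩) ≠ 0) {ε : Type} (E : Fin g → ε)
    (hD : ∀ D : Derivation ℤ N N, (∀ x ∈ L, D x = 0) → ∀ b c, E c = E b → ∀ i j,
      (a c).eval (z ⟨b, i⟩) * D (z ⟨b, i⟩) / y ⟨b, i⟩ =
        (a c).eval (z ⟨b, j⟩) * D (z ⟨b, j⟩) / y ⟨b, j⟩)
    (htr : ∀ b c, E c ≠ E b → ∑ i, (a c).eval (z ⟨b, i⟩) / (a b).eval (z ⟨b, i⟩) = 0)
    (hrep : ∀ b, ¬ Cl L ((fun b => z ⟨b, ⟨0, hpos b⟩⟩) '' {b}ᶜ) (z ⟨b, ⟨0, hpos b⟩⟩))
    (hy0 : ∀ i, y i ≠ 0) (hz' : ∀ k, z' k ∈ M)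
    (hG : ∀ i, α.eval (Sum.elim z z' i) + β.eval (Sum.elim z z' i) * Sum.elim y y' i = 0)
    (hQ0 : Q ≠ 0)
    (hN : α ^ 2 - β ^ 2 * f = (∏ i, (X - C (Sum.elim z z' i))) * Q)
    (hQ : ∀ r, Q.IsRoot r → r ∈ M) (i : Σ b, Fin (n b)) : z i ∈ M := by
  classical
  haveI : CharZero N := charZero_of_injective_algebraMap (algebraMap ℂ N).injective
  have key : ∀ D : Derivation ℤ N N, (∀ x ∈ M, D x = 0) → D (z i) = 0 := by
    intro D hDM
    have hDL : ∀ x ∈ L, D x = 0 := fun x hx => hDM x (hLM hx)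
    have hab : ∀ k, k < g → ∑ i, z i ^ k * D (z i) / y i = 0 := by
      intro k hk
      have h1 := abel D (fun n => hDL _ (hf n)) hsq hdeg hz hy hG hQ0 hN
        (fun r hr => hDM r (hQ r hr)) hk
      rw [Fintype.sum_sum_type] at h1
      simp only [Sum.elim_inl, Sum.elim_inr] at h1
      have h2 : ∑ k', z' k' ^ k * D (z' k') / y' k' = 0 :=
        Finset.sum_eq_zero fun k' _ => by rw [hDM _ (hz' k'), mul_zero, zero_div]
      rw [h2, add_zero] at h1
      exact h1
    have hac : ∀ c, ∑ i, (a c).eval (z i) * D (z i) / y i = 0 := by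
      intro c
      have h1 : ∀ i, (a c).eval (z i) * D (z i) / y i =
          ∑ k ∈ Finset.range g, (a c).coeff k * (z i ^ k * D (z i) / y i) := by
        intro i
        rw [Polynomial.eval_eq_sum_range' (ha c), Finset.sum_mul, Finset.sum_div]
        refine Finset.sum_congr rfl fun k _ => ?_
        rw [mul_assoc, mul_div_assoc]
      rw [Finset.sum_congr rfl fun i _ => h1 i, Finset.sum_comm]
      refine Finset.sum_eq_zero fun k hk => ?_
      rw [← Finset.mul_sum, hab k (Finset.mem_range.1 hk), mul_zero]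
    obtain ⟨c₀, i₀⟩ := i
    set s : Finset (Fin g) := Finset.univ.filter (fun b => E b = E c₀) with hs
    have hlin := gen_lin L a haL hli (fun b => z ⟨b, ⟨0, hpos b⟩⟩) hrep s
      (fun b => (n b : N) * (D (z ⟨b, ⟨0, hpos b⟩⟩) / y ⟨b, ⟨0, hpos b⟩⟩)) (by
      intro c hc
      have hEc : E c = E c₀ := (Finset.mem_filter.1 hc).2
      have h3 := hac c
      rw [Fintype.sum_sigma] at h3
      have h4 : ∀ b, b ∉ s →
          ∑ i, (a c).eval (z ⟨b, i⟩) * D (z ⟨b, i⟩) / y ⟨b, i⟩ = 0 := by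
        intro b hb
        have hE : E c ≠ E b := by
          intro h
          apply hb
          rw [hs, Finset.mem_filter]
          exact ⟨Finset.mem_univ _, by rw [← h, hEc]⟩
        let j₀ : Fin (n b) := ⟨0, hpos b⟩
        have h5 : ∀ i, (a c).eval (z ⟨b, i⟩) * D (z ⟨b, i⟩) / y ⟨b, i⟩ =
            (a c).eval (z ⟨b, i⟩) / (a b).eval (z ⟨b, i⟩) *
              ((a b).eval (z ⟨b, j₀⟩) * D (z ⟨b, j₀⟩) / y ⟨b, j₀⟩) := by
          intro i
          rw [← hD D hDL b b rfl i j₀]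
          have := ha0 b i
          field_simp
        rw [Finset.sum_congr rfl fun i _ => h5 i, ← Finset.sum_mul, htr b c hE, zero_mul]
      rw [← Finset.sum_subset (Finset.subset_univ s) (fun b _ hb => h4 b hb)] at h3
      rw [← h3]
      refine Finset.sum_congr rfl fun b hb => ?_
      have hEb : E c = E b := by rw [hEc, (Finset.mem_filter.1 hb).2]
      rw [Finset.sum_congr rfl fun i _ => hD D hDL b c hEb i ⟨0, hpos b⟩, Finset.sum_const,
        nsmul_eq_mul, Finset.card_univ, Fintype.card_fin]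
      ring) c₀ (Finset.mem_filter.2 ⟨Finset.mem_univ _, rfl⟩)
    have h7 := (mul_eq_zero.1 hlin).resolve_left (Nat.cast_ne_zero.2 (hpos c₀).ne')
    have h8 := (div_eq_zero_iff.1 h7).resolve_right (hy0 _)
    have h9 := hD D hDL c₀ c₀ rfl i₀ ⟨0, hpos c₀⟩
    rw [h8, mul_zero, zero_div, div_eq_zero_iff] at h9
    exact (mul_eq_zero.1 (h9.resolve_right (hy0 _))).resolve_left (ha0 c₀ i₀)
  by_contra hxM
  obtain ⟨D, hD', hDx⟩ := exists_derivation M (w := z i) (fun h => hxM (hM _ h))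
  have := key D hD'
  rw [hDx] at this
  exact one_ne_zero this

end

section Fam

variable {K : Type} [Field K] [Algebra ℂ K] {N : Type} [Field N] [Algebra ℂ N] [IsAlgClosed N]

/-- The domination property. -/
theorem dom_fam_plus {g : ℕ} {l x y : K} {f : (IntermediateField.adjoin ℂ {l})[X]}
    (h : HPencil g l x y f)
    (lam : IntermediateField.adjoin ℂ {l} →ₐ[ℂ] N) (L : IntermediateField ℂ N)
    (hlamL : ∀ e, lam e ∈ L) {n : Fin g → ℕ} (hpos : ∀ b, 0 < n b) {κ : Type} [Fintype κ]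
    (σ : (Σ b, Fin (n b)) → (K →ₐ[ℂ] N)) (ρ : κ → (K →ₐ[ℂ] N))
    (hσ : ∀ i (e : IntermediateField.adjoin ℂ {l}), Sum.elim σ ρ i e = lam e)
    (hinj : Function.Injective fun i => Sum.elim σ ρ i x)
    (F : Fin g → IntermediateField ℂ K) (hF : ∀ b, Module.finrank (F b) K = n b)
    (hagree : ∀ b i j, ∀ k ∈ F b, σ ⟨b, i⟩ k = σ ⟨b, j⟩ k)
    (a : Fin g → (IntermediateField.adjoin ℂ {l})[X]) (ha : ∀ b, (a b).natDegree < g)
    (q : ∀ b, RationalQuotient l x y (F b) (n b) (a b)) 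
    (hli : LinearIndependent (IntermediateField.adjoin ℂ {l}) a)
    (htr : ∀ b c, F c ≠ F b → Algebra.trace (F b) K (aeval x (a c) / aeval x (a b)) = 0)
    (hrep : ∀ b, ¬ Cl L ((fun b => σ ⟨b, ⟨0, hpos b⟩⟩ x) '' {b}ᶜ) (σ ⟨b, ⟨0, hpos b⟩⟩ x))
    (α β Q : N[X]) (hQ0 : Q ≠ 0)
    (hG : ∀ i, α.eval (Sum.elim σ ρ i x) + β.eval (Sum.elim σ ρ i x) * Sum.elim σ ρ i y = 0)
    (hN : α ^ 2 - β ^ 2 * f.map lam.toRingHom = (∏ i, (X - C (Sum.elim σ ρ i x))) * Q)
    (M : IntermediateField ℂ N) (hM : ∀ u, IsAlgebraic M u → u ∈ M) (hLM : L ≤ M)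
    (hρ : ∀ k, ρ k x ∈ M)
    (hQ : ∀ r, Q.IsRoot r → r ∈ M) (i : Σ b, Fin (n b)) : σ i x ∈ M := by
  have ha0 : ∀ b, a b ≠ 0 := fun b => hli.ne_zero b
  have hcoef : ∀ (p : (IntermediateField.adjoin ℂ {l})[X]) (n : ℕ),
      (p.map lam.toRingHom).coeff n ∈ L := by
    intro p n
    rw [coeff_map]
    exact hlamL _
  have hev : ∀ (i : (Σ b, Fin (n b)) ⊕ κ) (p : (IntermediateField.adjoin ℂ {l})[X]),
      Sum.elim σ ρ i (aeval x p) = (p.map lam.toRingHom).eval (Sum.elim σ ρ i x) := by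
    intro i p
    rw [Polynomial.eval_map, Polynomial.aeval_def]
    refine (Polynomial.hom_eval₂ p _ (Sum.elim σ ρ i).toRingHom x).trans ?_
    congr 1
    exact RingHom.ext fun e => hσ i e
  have hev' : ∀ (i : Σ b, Fin (n b)) (p : (IntermediateField.adjoin ℂ {l})[X]),
      σ i (aeval x p) = (p.map lam.toRingHom).eval (σ i x) := fun i p => hev (Sum.inl i) p
  have hy0 : ∀ i : Σ b, Fin (n b), σ i y ≠ 0 := by
    intro i h0
    have h1 : y = 0 := (σ i).toRingHom.injective (h0.trans (map_zero _).symm)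
    apply h.notMem
    rw [h1]
    exact zero_mem _
  have haev : ∀ b, aeval x (a b) ≠ 0 := by
    intro b h0
    have h1 : Transcendental (IntermediateField.adjoin ℂ ({l} : Set K)) x :=
      ((pair_iff l x).1 h.ind).2
    exact h1 ⟨a b, ha0 b, h0⟩
  have hai : ∀ (i : Σ b, Fin (n b)) b, ((a b).map lam.toRingHom).eval (σ i x) ≠ 0 := by
    intro i b h0
    rw [← hev'] at h0
    exact haev b ((σ i).toRingHom.injective (h0.trans (map_zero _).symm))
  choose P R hR hJ hw hv using fun b => (q b).form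
  have hder : ∀ (i : Σ b, Fin (n b)) (P R : (IntermediateField.adjoin ℂ {l})[X])
      (hR : aeval x R ≠ 0) (D : Derivation ℤ N N) (hD : ∀ u ∈ L, D u = 0),
      D (σ i x) * σ i (aeval x (derivative P * R - P * derivative R) / aeval x R ^ 2) =
        D (σ i (aeval x P / aeval x R)) := by
    intro i P R hR D hD
    have hRi : (R.map lam.toRingHom).eval (σ i x) ≠ 0 := by
      rw [← hev']
      exact fun h0 => hR ((σ i).toRingHom.injective (h0.trans (map_zero _).symm))
    have h1 := der_fibre L (P := P.map lam.toRingHom) (Q := R.map lam.toRingHom) (hcoef P)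
      (hcoef R) (w := σ i (aeval x P / aeval x R)) (z := σ i x) (by
        rw [map_div₀, hev', hev', div_mul_cancel₀ _ hRi]) hRi D hD
    rw [← h1, map_div₀, map_pow, hev', hev', derivative_map, derivative_map]
    simp only [Polynomial.map_sub, Polynomial.map_mul]
  refine dom_classes (z := fun i => σ i x) (y := fun i => σ i y) (z' := fun k => ρ k x)
    (y' := fun k => ρ k y) hpos L M hLM hM (f := f.map lam.toRingHom) (α := α) (β := β) (Q := Q)
    (hcoef f) (h.sep.map (f := lam.toRingHom)).squarefree (by rw [natDegree_map]; exact h.low) ?_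
    ?_ (fun b => (a b).map lam.toRingHom) (fun b => by
      change ((a b).map lam.toRingHom).natDegree < g
      rw [natDegree_map]
      exact ha b) (fun b k => hcoef (a b) k) (indep_map lam.toRingHom a ha hli)
    (fun b i => hai ⟨b, i⟩ b) F ?_ ?_ hrep hy0 hρ ?_ hQ0 ?_ hQ i
  · have h2 : (Sum.elim (fun i => σ i x) fun k => ρ k x) = fun i => Sum.elim σ ρ i x := by
      funext i
      rcases i with i | i <;> rfl
    rw [h2]
    exact hinj
  · rintro (i | i)
    · change σ i y ^ 2 = _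
      rw [← map_pow, h.eq]
      exact hev (Sum.inl i) f
    · change ρ i y ^ 2 = _
      rw [← map_pow, h.eq]
      exact hev (Sum.inr i) f
  · intro D hD b c hbc i j
    change ((a c).map lam.toRingHom).eval (σ ⟨b, i⟩ x) * D (σ ⟨b, i⟩ x) / σ ⟨b, i⟩ y =
      ((a c).map lam.toRingHom).eval (σ ⟨b, j⟩ x) * D (σ ⟨b, j⟩ x) / σ ⟨b, j⟩ y
    have hwc := hw c
    have hvc := hv c
    rw [hbc] at hwc hvc
    have e1 := hder ⟨b, i⟩ (P c) (R c) (hR c) D hD
    have e2 := hder ⟨b, j⟩ (P c) (R c) (hR c) D hD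
    rw [hagree b i j _ hwc] at e1
    have e3 := hagree b i j _ hvc
    set J := aeval x (derivative (P c) * R c - P c * derivative (R c)) / aeval x (R c) ^ 2 with hJd
    have hJ0 : J ≠ 0 := div_ne_zero (hJ c) (pow_ne_zero 2 (hR c))
    have hJi : ∀ k, σ k J ≠ 0 := fun k h0 =>
      hJ0 ((σ k).toRingHom.injective (h0.trans (map_zero _).symm))
    have ai := hai ⟨b, i⟩ c
    have aj := hai ⟨b, j⟩ c
    rw [map_div₀, map_div₀, map_mul, map_mul, hev' ⟨b, i⟩ (a c), hev' ⟨b, j⟩ (a c),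
      div_eq_div_iff ai aj] at e3
    rw [div_eq_div_iff (hy0 _) (hy0 _)]
    apply mul_right_cancel₀ (mul_ne_zero (hJi ⟨b, i⟩) (hJi ⟨b, j⟩))
    linear_combination (((a c).map lam.toRingHom).eval (σ ⟨b, i⟩ x) * σ ⟨b, j⟩ y *
        σ ⟨b, j⟩ J) * e1 -
      (((a c).map lam.toRingHom).eval (σ ⟨b, j⟩ x) * σ ⟨b, i⟩ y * σ ⟨b, i⟩ J) * e2 -
      D (σ ⟨b, j⟩ (aeval x (P c) / aeval x (R c))) * e3
  · intro b c hbc
    have h3 := sum_eq_zero_of_trace (hF b) (fun i => σ ⟨b, i⟩) (fun i j hij => by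
      have h4 := hinj (a₁ := Sum.inl ⟨b, i⟩) (a₂ := Sum.inl ⟨b, j⟩)
        (congrArg (fun φ : K →ₐ[ℂ] N => φ x) hij)
      have h5 := Sum.inl_injective h4
      exact eq_of_heq (Sigma.mk.inj h5).2) (hagree b) (htr b c hbc)
    rw [← h3]
    refine Finset.sum_congr rfl fun i _ => ?_
    change ((a c).map lam.toRingHom).eval (σ ⟨b, i⟩ x) /
      ((a b).map lam.toRingHom).eval (σ ⟨b, i⟩ x) = σ ⟨b, i⟩ (aeval x (a c) / aeval x (a b))
    rw [map_div₀, hev', hev']
  · rintro (i | i)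
    · exact hG (Sum.inl i)
    · exact hG (Sum.inr i)
  · rw [hN]
    congr 1
    refine Finset.prod_congr rfl fun i _ => ?_
    rcases i with i | i <;> rfl

end Fam

end Vale.Agent.P297.Gg
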