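import Vale.Agent.P297.Gg.H878.AsmG

/-!
Varieties that are dominated by a double cover of a rational variety.
-/

set_option linter.unusedSectionVars false
set_option linter.style.haveILetI false

open CategoryTheory AlgebraicGeometry IntermediateField Polynomial

namespace Vale.Agent.P297.Gg

open Vale.Agent.P297 Vale.Agent.P297.H839 Vale.Agent.P297.H516 Vale.Agent.P297.H878
  Vale.Agent.P297.Gen

/-- If `2 ([u] - [v])` lies in `R` for all `u`, `v` then so does `[u] - [v]`, for a variety that is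
dominated by a double cover of a rational variety. -/
theorem half_sub {S : Scheme.{0}} [IsIntegral S] (f : S ⟶ Spec (.of ℂ)) [IsProper f]
    {K₀ : Type} [Field K₀] [Algebra ℂ K₀] (hS : IsFunctionFieldOf f K₀) {K : Type} [Field K]
    [Algebra ℂ K] (em : K₀ →ₐ[ℂ] K) (hK : IsDouble K) (R : AddSubgroup (ZeroCycle S))
    (hR : Rat f ≤ R)
    (hR2 : ∀ u v : ClosedPt S,
      (2 : ℤ) • (Finsupp.single u (1 : ℤ) - Finsupp.single v 1) ∈ R) (u v : ClosedPt S) :
    Finsupp.single u (1 : ℤ) - Finsupp.single v 1 ∈ R := by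
  obtain ⟨F, θ, ⟨d, x, hx, rfl⟩, hθ, htop⟩ := hK
  set T : Set K := (IntermediateField.adjoin ℂ (Set.range x) : Set K) ∪ {θ} with hTdef
  have hT : ∀ a ∈ T, a ∈ IntermediateField.adjoin ℂ (Set.range x) ∨ a = θ := by
    rintro a (ha | ha)
    · exact Or.inl ha
    · exact Or.inr ha
  obtain ⟨U, hU, hne, hi⟩ := exists_chart f hS
  letI := chartAlg f hU
  haveI := chart_finiteType f hU
  obtain ⟨i, hi, hfrac⟩ := hi
  have hinj : Function.Injective (em.comp i) := em.toRingHom.injective.comp hi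
  have h1 : (1 : ℤ) • (Finsupp.single u (1 : ℤ) - Finsupp.single v 1) ∈ R := by
    by_cases hθL : θ ∈ IntermediateField.adjoin ℂ (Set.range x)
    · refine global_of_good' f hU 1 R hR (em.comp i) hinj ?_ u v
      apply Good.mono hR
      apply good_trivial x hx
      rw [eq_top_iff, ← htop, IntermediateField.adjoin_le_iff]
      intro a ha
      rcases hT a ha with h | rfl
      · exact h
      · exact hθL
    · have hspan := exists_quad _ θ hθ T hT htop
      obtain ⟨p, r, e, hp, hpr, he0, he, heθ⟩ := exists_normal_form x hx θ hθ hθL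
      obtain ⟨A, hA, hιA, hgen⟩ := double_generic f hU.fromSpec (chart_hj f hU) R hR hR2 x hx
        (e * θ) p r hp hpr heθ (by
          intro hmem
          apply hθL
          have h2 : θ = e⁻¹ * (e * θ) := by rw [inv_mul_cancel_left₀ he0]
          rw [h2]
          exact IntermediateField.mul_mem _ (IntermediateField.inv_mem _ he) hmem) (by
          intro y
          obtain ⟨a, ha, b, hb, hab⟩ := hspan y
          refine ⟨a, ha, b * e⁻¹, IntermediateField.mul_mem _ hb (IntermediateField.inv_mem _ he),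
            ?_⟩
          rw [hab, mul_assoc, inv_mul_cancel_left₀ he0]) (em.comp i)
      refine global_of_generic' f hU 1 R hR (em.comp i) hinj A hA hιA ?_ u v
      intro ξ₁ ξ₂
      rw [one_smul]
      exact hgen ξ₁ ξ₂
  rw [one_smul] at h1
  exact h1

/-- A power of two kills the zero-cycles of degree zero only if they vanish. -/
theorem one_sub {S : Scheme.{0}} [IsIntegral S] (f : S ⟶ Spec (.of ℂ)) [IsProper f]
    {K₀ : Type} [Field K₀] [Algebra ℂ K₀] (hS : IsFunctionFieldOf f K₀) {K : Type} [Field K]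
    [Algebra ℂ K] (em : K₀ →ₐ[ℂ] K) (hK : IsDouble K) (k : ℕ)
    (h : ∀ u v : ClosedPt S, ((2 : ℤ) ^ k) • (Finsupp.single u (1 : ℤ) - Finsupp.single v 1) ∈
      Rat f) (u v : ClosedPt S) : RatEquiv f u v := by
  induction k with
  | zero =>
    have h1 := h u v
    rwa [pow_zero, one_smul] at h1
  | succ k ih =>
    apply ih
    intro u v
    set D : Set (ZeroCycle S) :=
      {z | ∃ a b : ClosedPt S, z = (2 : ℤ) • (Finsupp.single a (1 : ℤ) - Finsupp.single b 1)} with hD
    have hmemD : ∀ a b : ClosedPt S,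
        (2 : ℤ) • (Finsupp.single a (1 : ℤ) - Finsupp.single b 1) ∈ D := fun a b => ⟨a, b, rfl⟩
    have key : ∀ u v : ClosedPt S, Finsupp.single u (1 : ℤ) - Finsupp.single v 1 ∈
        Rat f ⊔ AddSubgroup.closure D :=
      fun u v => half_sub f hS em hK _ le_sup_left
        (fun a b => AddSubgroup.mem_sup_right (AddSubgroup.subset_closure (hmemD a b))) u v
    obtain ⟨y, hy, z, hz, hyz⟩ := AddSubgroup.mem_sup.mp (key u v)
    rw [← hyz, smul_add]
    refine AddSubgroup.add_mem _ (AddSubgroup.zsmul_mem _ hy _) ?_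
    clear hyz
    induction hz using AddSubgroup.closure_induction with
    | mem z hz =>
      obtain ⟨a, b, rfl⟩ := hz
      rw [smul_smul, ← pow_succ]
      exact h a b
    | zero => rw [smul_zero]; exact AddSubgroup.zero_mem _
    | add z w _ _ h1 h2 => rw [smul_add]; exact AddSubgroup.add_mem _ h1 h2
    | neg z _ h1 => rw [smul_neg]; exact AddSubgroup.neg_mem _ h1

/-- **The assembly**, for all dominated varieties. -/
theorem asmG_sub {K N : Type} [Field K] [Algebra ℂ K] [Field N] [Algebra ℂ N] [IsAlgClosed N]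
    {g a : ℕ} {l x y : K} {f : (IntermediateField.adjoin ℂ {l})[X]} (h : HPencil g l x y f)
    (lam : IntermediateField.adjoin ℂ {l} →ₐ[ℂ] N) (L : IntermediateField ℂ N)
    (hlamL : ∀ e, lam e ∈ L)
    (hLw : ∀ w, w ∉ L → AlgebraicIndependent ℂ
      ![lam ⟨l, IntermediateField.mem_adjoin_simple_self ℂ l⟩, w])
    {n : Fin g → ℕ} {J : Type} [Fintype J] (σ : (Σ b, Fin (n b)) → (K →ₐ[ℂ] N))
    (ρ : J → (K →ₐ[ℂ] N))
    (hσ : ∀ i (e : IntermediateField.adjoin ℂ {l}), σ i e = lam e)
    (hρ : ∀ i (e : IntermediateField.adjoin ℂ {l}), ρ i e = lam e) (hρL : ∀ i, ρ i x ∈ L)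
    {bl : (Σ b, Fin (n b)) ⊕ J → Option (Fin g)}
    (hS : SysG L (f.map lam.toRingHom) g a bl (fun i => Sum.elim σ ρ i x)
      (fun i => Sum.elim σ ρ i y))
    (E : Fin g → IntermediateField ℂ K) (hr : ∀ b, IsRational (E b))
    (hx : ∀ b, E b ⊔ IntermediateField.adjoin ℂ {x} = ⊤)
    (hE : ∀ b, Module.finrank (E b) K = n b) (hpos : ∀ b, 0 < n b)
    (hagree : ∀ b i i', ∀ k ∈ E b, σ ⟨b, i⟩ k = σ ⟨b, i'⟩ k) (K₀ : Type) [Field K₀] [Algebra ℂ K₀]
    (e : K₀ →ₐ[ℂ] K) : PointsEquivalent K₀ := by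
  classical
  obtain ⟨α, β, c, w, hdα, hdβ, hc, hn, hv, hβ, hβw, hwz, hwinj, -, hwcl⟩ := hS.core
  have hwL : ∀ k, w k ∉ L := fun k h0 => hwcl k (Cl.of_L h0)
  have hroot : ∀ k, (α ^ 2 - β ^ 2 * f.map lam.toRingHom).eval (w k) = 0 := by
    intro k
    rw [hn, eval_mul]
    have h1 : (∏ k, (X - Polynomial.C (w k))).eval (w k) = 0 := by
      rw [eval_prod]
      exact Finset.prod_eq_zero (Finset.mem_univ k) (by simp)
    rw [h1, mul_zero]
  have hpt : ∀ k, (-(α.eval (w k) / β.eval (w k))) ^ 2 = (f.map lam.toRingHom).eval (w k) := by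
    intro k
    have h1 := hroot k
    rw [eval_sub, eval_mul, eval_pow, eval_pow] at h1
    rw [neg_sq, div_pow, div_eq_iff (pow_ne_zero 2 (hβw k))]
    linear_combination h1
  choose τ hτ hτx hτy using fun k => h.emb lam (hLw (w k) (hwL k)) (hpt k)
  have hg := hS.pos
  let r₀ : Fin g := ⟨0, hg⟩
  have hfun : (fun k => τ k x) = w := funext hτx
  have key : ∀ {S : Scheme.{0}} {F : S ⟶ Spec (.of ℂ)} [IsProper F] {C : Type} [CommRing C]
      [Algebra ℂ C] [Algebra.FiniteType ℂ C] {j : Spec (.of C) ⟶ S}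
      {hj : j ≫ F = Spec.map (CommRingCat.ofHom (algebraMap ℂ C))} (ι : C →ₐ[ℂ] K),
      Finsupp.single ((τ r₀).comp ι) (2 : ℤ) ∈ Good F j hj (Rat F) N := by
    intro S F _ C _ _ _ j hj ι
    refine asmG_two (f := F) (j := j) (hj := hj) h lam L hlamL σ ρ hσ hρ hρL E hr hx hE hpos
      hagree hS.inj τ hτ (by rw [hfun]; exact hwinj) (fun k i => by rw [hτx]; exact hwz k i)
      (α := α) (β := β) (c := c) (by rw [Fintype.card_fin]; exact hdα)
      (by rw [Fintype.card_fin]; exact hdβ) hc ?_ hv ?_ hβ ?_ r₀ ?_ ι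
    · rw [hn]
      congr 1
      exact Finset.prod_congr rfl fun k _ => by rw [hτx]
    · intro k
      have h1 := hβw k
      rw [hτx, hτy]
      field_simp
      ring
    · intro k
      rw [hτx]
      exact hβw k
    · rw [hfun, hτx]
      exact hwcl r₀
  intro S _ F _ hg u v
  refine one_sub F hg e h.isDouble 1 ?_ u v
  intro u v
  obtain ⟨U, hU, hne, hi⟩ := exists_chart F hg
  letI := chartAlg F hU
  haveI := chart_finiteType F hU
  obtain ⟨i, hi, hfrac⟩ := hi
  have h4 := global_of_good' F hU ((2 : ℤ) ^ 1) (Rat F) le_rfl ((τ r₀).comp (e.comp i))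
    ((τ r₀).toRingHom.injective.comp (e.toRingHom.injective.comp hi)) (by
      rw [pow_one]
      exact key (F := F) (j := hU.fromSpec) (hj := chart_hj F hU) (e.comp i)) u v
  exact h4

end Vale.Agent.P297.Gg
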